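import Crest.Agent.R241.Calc

/-!
# Block E (owner helper36): localising a rectifiable current to one chart.  Helper prefix `kbext_`.
-/

open MeasureTheory Set Filter Topology Metric
open Crest.GeometryTopology.MetricCurrent
open Crest.GeometryTopology.Submanifold (Euc)
open scoped ENNReal NNReal InnerProductSpace

noncomputable section

namespace Crest.Agent.R241

universe u

variable {X : Type u} [MetricSpace X] [MeasurableSpace X] {k : ℕ}

/-- the data of `IsIntegerRectifiable`, with measurable densities -/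
structure Rep (T : Functional X k) (E : ℕ → Set (Euc k)) (φ : ℕ → Euc k → X)
    (θ : ℕ → Euc k → ℤ) : Prop where
  meas : ∀ i, MeasurableSet (E i)
  fin : ∀ i, volume (E i) ≠ ⊤
  lip : ∀ i, ∃ L : ℝ≥0, LipschitzOnWith L (φ i) (E i)
  colip : ∀ i, ∃ C : ℝ, 0 < C ∧ ∀ z ∈ E i, ∀ w ∈ E i, dist z w ≤ C * dist (φ i z) (φ i w)
  measθ : ∀ i, Measurable (θ i)
  int : ∀ i, IntegrableOn (fun z => (θ i z : ℝ)) (E i)
  disj : ∀ i j, i ≠ j → Disjoint (φ i '' E i) (φ j '' E j)
  cur : ∀ i, IsCurrent (chartAction (E i) (φ i) (θ i))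
  sum : Summable fun i => mass (chartAction (E i) (φ i) (θ i))
  eq : ∀ f π, IsTestPair f π → T f π = ∑' i, chartAction (E i) (φ i) (θ i) f π

/-- Recipe: `θ' i z = ⌊(hint.1.mk _) z⌋` (`Measurable.floor`), a.e. equal to `θ i` on `E i`, so the
chart actions are equal (`funext`, `integral_congr_ae`); replace `C` by `max C 1`. -/
theorem exists_rep {T : Functional X k} (h : IsIntegerRectifiable T) : ∃ E φ θ, Rep T E φ θ := by
  obtain ⟨E, φ, θ, hE, hL, hC, hint, hdis, hcur, hsum, heq⟩ := h
  set θ' : ℕ → Euc k → ℤ := fun i z => ⌊(hint i).1.mk _ z⌋ with hθ'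
  have hae : ∀ i, ∀ᵐ z ∂volume.restrict (E i), θ' i z = θ i z := by
    intro i
    filter_upwards [(hint i).1.ae_eq_mk] with z hz
    simp only [hθ', ← hz, Int.floor_intCast]
  have hca : ∀ i, chartAction (E i) (φ i) (θ' i) = chartAction (E i) (φ i) (θ i) := by
    intro i
    funext f π
    unfold chartAction
    split_ifs
    · refine integral_congr_ae ?_
      filter_upwards [hae i] with z hz
      rw [hz]
    · rfl
  refine ⟨E, φ, θ', fun i => (hE i).1, fun i => (hE i).2.measure_lt_top.ne, hL, fun i => ?_,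
    fun i => (hint i).1.stronglyMeasurable_mk.measurable.floor, fun i => ?_, hdis, fun i => ?_, ?_,
    fun f π hf => ?_⟩
  · obtain ⟨C, hC⟩ := hC i
    refine ⟨max C 1, by positivity, fun z hz w hw => (hC z hz w hw).trans ?_⟩
    gcongr
    exact le_max_left _ _
  · refine (hint i).congr ?_
    filter_upwards [hae i] with z hz
    rw [hz]
  · rw [hca]; exact hcur i
  · simpa only [hca] using hsum
  · simpa only [hca] using heq f π hf

/-- `le_csInf`-type argument: `|S f π| ≤ ∫ |f| dμ ≤ μ.real univ` for every controlling `μ` -/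
theorem abs_le_mass {S : Functional X k} (hS : IsCurrent S) {f : X → ℝ} {π : Fin k → X → ℝ}
    (h : IsTestPair f π) (hπ : ∀ a, LipschitzWith 1 (π a)) (hf : ∀ x, |f x| ≤ 1) :
    |S f π| ≤ mass S := by
  obtain ⟨μ₀, h₀, h₀'⟩ := hS.finite_mass
  refine le_csInf ⟨_, μ₀, h₀, h₀', rfl⟩ ?_
  rintro _ ⟨μ, hμ, hc, rfl⟩
  refine (hc f π h hπ).trans ?_
  have := norm_integral_le_of_norm_le_const (μ := μ) (f := fun x => |f x|) (C := 1)
    (Eventually.of_forall fun x => by simpa using hf x)
  rw [one_mul] at this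
  exact (le_abs_self _).trans this

/-- Lipschitz approximation of the indicator of `C` -/
def cutF (C : Set X) (m : ℕ) (x : X) : ℝ := max 0 (1 - m * infDist x C)

omit [MeasurableSpace X] in
theorem abs_cutF_le (C : Set X) (m : ℕ) (x : X) : |cutF C m x| ≤ 1 := by
  have h : 0 ≤ (m : ℝ) * infDist x C := mul_nonneg m.cast_nonneg infDist_nonneg
  rw [abs_of_nonneg (le_max_left _ _)]
  exact max_le zero_le_one (by linarith)

omit [MeasurableSpace X] in
theorem lip_cutF (C : Set X) (m : ℕ) : LipschitzWith m (cutF C m) := by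
  refine LipschitzWith.const_max (LipschitzWith.of_dist_le_mul fun x y => ?_) 0
  have h := (lipschitz_infDist_pt C).dist_le_mul x y
  rw [NNReal.coe_one, one_mul, Real.dist_eq] at h
  rw [Real.dist_eq, sub_sub_sub_cancel_left, ← mul_sub, abs_mul, abs_sub_comm, Nat.abs_cast,
    NNReal.coe_natCast]
  gcongr

omit [MeasurableSpace X] in
theorem test_cutF (C : Set X) (m : ℕ) {π : Fin k → X → ℝ} (hπ : ∀ a, LipschitzWith 1 (π a)) :
    IsTestPair (cutF C m) π :=
  ⟨⟨_, lip_cutF C m⟩, ⟨1, abs_cutF_le C m⟩, fun a => ⟨1, hπ a⟩⟩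

omit [MeasurableSpace X] in
theorem tendsto_cutF {C : Set X} (hC : IsClosed C) (hne : C.Nonempty) (x : X) :
    Tendsto (fun m => cutF C m x) atTop (𝓝 (C.indicator 1 x)) := by
  by_cases hx : x ∈ C
  · simp [cutF, hx, infDist_zero_of_mem hx]
  · have hp : 0 < infDist x C := (hC.notMem_iff_infDist_pos hne).1 hx
    rw [indicator_of_notMem hx]
    refine tendsto_const_nhds.congr' ?_
    filter_upwards [(tendsto_natCast_atTop_atTop (R := ℝ)).eventually_ge_atTop (1 / infDist x C)]
      with m hm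
    rw [div_le_iff₀ hp] at hm
    exact (max_eq_left (by linarith)).symm

omit [MeasurableSpace X] in
theorem kbext_jac {E : Set (Euc k)} (hE : MeasurableSet E) {φ : Euc k → X} {L : ℝ≥0}
    (hφ : LipschitzOnWith L φ E) {θ : Euc k → ℤ} (hθ : IntegrableOn (fun z => (θ z : ℝ)) E)
    {π : Fin k → X → ℝ} (hπ : ∀ a, LipschitzWith 1 (π a)) :
    IntegrableOn (fun z => (θ z : ℝ) * jacOn E φ π z) E := by
  have hg : ∀ a, LipschitzOnWith (1 * L) (fun w => π a (φ w)) E := fun a =>
    (hπ a).comp_lipschitzOnWith hφ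
  exact hθ.mul_bdd (aemeasurable_jacE hE hg).aestronglyMeasurable (ae_abs_jacE_le hE hg)

/-- Recipe: the terms converge by dominated convergence (`ae_abs_jacE_le`, `aemeasurable_jacE`) to
`∫ z in E j, θ j z * indicator (φ i '' C) 1 (φ j z) * jacOn …`, which is `0` for `j ≠ i` (`disj`) and the
integral over `C` for `j = i` (injectivity); sum with `tendsto_tsum_of_dominated_convergence` and
`abs_le_mass`. -/
theorem Rep.tendsto_cut {T : Functional X k} {E φ θ} (h : Rep T E φ θ) (i : ℕ) {C : Set (Euc k)}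
    (hC : IsCompact C) (hne : C.Nonempty) (hCE : C ⊆ E i) {π : Fin k → X → ℝ}
    (hπ : ∀ a, LipschitzWith 1 (π a)) :
    Tendsto (fun m => T (cutF (φ i '' C) m) π) atTop
      (𝓝 (∫ z in C, (θ i z : ℝ) * jacOn (E i) (φ i) π z)) := by
  obtain ⟨Li, hLi⟩ := h.lip i
  obtain ⟨Ci, -, hCi⟩ := h.colip i
  have hinj : InjOn (φ i) (E i) := fun z hz w hw h => by
    have := hCi z hz w hw
    rw [h, dist_self, mul_zero] at this
    exact dist_le_zero.1 this
  have hK : IsClosed (φ i '' C) := (hC.image_of_continuousOn (hLi.continuousOn.mono hCE)).isClosed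
  set g : ℕ → ℝ := fun j =>
    ∫ z in E j, (φ i '' C).indicator 1 (φ j z) * ((θ j z : ℝ) * jacOn (E j) (φ j) π z) with hg
  have h1 : ∀ j, Tendsto (fun m => chartAction (E j) (φ j) (θ j) (cutF (φ i '' C) m) π) atTop
      (𝓝 (g j)) := by
    intro j
    obtain ⟨L, hL⟩ := h.lip j
    have hint := kbext_jac (h.meas j) hL (h.int j) hπ
    have e : ∀ m, chartAction (E j) (φ j) (θ j) (cutF (φ i '' C) m) π =
        ∫ z in E j, cutF (φ i '' C) m (φ j z) * ((θ j z : ℝ) * jacOn (E j) (φ j) π z) := by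
      intro m
      unfold chartAction
      rw [if_pos (test_cutF _ m hπ)]
      refine integral_congr_ae (Eventually.of_forall fun z => ?_)
      simp only [jacOn]
      ring
    simp only [e]
    refine tendsto_integral_of_dominated_convergence _ (fun m => ?_) hint.norm (fun m => ?_) ?_
    · exact (((lip_cutF _ m).continuous.comp_continuousOn hL.continuousOn).aestronglyMeasurable
        (h.meas j)).mul hint.1
    · refine Eventually.of_forall fun z => ?_
      rw [norm_mul]
      exact mul_le_of_le_one_left (norm_nonneg _) (abs_cutF_le _ _ _)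
    · exact Eventually.of_forall fun z => (tendsto_cutF hK (hne.image _) _).mul_const _
  have h2 := tendsto_tsum_of_dominated_convergence h.sum h1 (Eventually.of_forall fun m j =>
    abs_le_mass (h.cur j) (test_cutF _ m hπ) hπ (abs_cutF_le _ m))
  have h3 : ∑' j, g j = ∫ z in C, (θ i z : ℝ) * jacOn (E i) (φ i) π z := by
    rw [tsum_eq_single i]
    · rw [← inter_eq_self_of_subset_right hCE, ← setIntegral_indicator hC.measurableSet]
      refine setIntegral_congr_fun (h.meas i) fun z hz => ?_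
      by_cases hzC : z ∈ C
      · simp [hzC, mem_image_of_mem (φ i) hzC]
      · have : φ i z ∉ φ i '' C := by
          rintro ⟨w, hw, e⟩
          exact hzC (hinj (hCE hw) hz e ▸ hw)
        simp only [indicator_of_notMem hzC, indicator_of_notMem this, zero_mul]
    · intro j hj
      refine setIntegral_eq_zero_of_forall_eq_zero fun z hz => ?_
      have : φ j z ∉ φ i '' C := fun hm =>
        (h.disj j i hj).notMem_of_mem_left (mem_image_of_mem _ hz) (image_mono hCE hm)
      simp only [indicator_of_notMem this, zero_mul]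
  rw [← h3]
  exact h2.congr fun m => (h.eq _ _ (test_cutF _ m hπ)).symm

/-- inner regularity: `MeasurableSet.exists_isCompact_diff_lt`,
`Integrable.tendsto_setIntegral_nhds_zero` -/
theorem abs_setIntegral_le_of_compact {P : Set (Euc k)} (hP : MeasurableSet P) (hfin : volume P ≠ ⊤)
    {F : Euc k → ℝ} (hF : IntegrableOn F P) {M : ℝ}
    (h : ∀ C ⊆ P, IsCompact C → |∫ z in C, F z| ≤ M) : |∫ z in P, F z| ≤ M := by
  have h1 : ∀ n : ℕ, ∃ C, C ⊆ P ∧ IsCompact C ∧ volume (P \ C) < (n : ℝ≥0∞)⁻¹ := fun n =>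
    hP.exists_isCompact_sdiff_lt hfin (by simp)
  choose C hCP hC hv using h1
  have h2 : Tendsto ((volume.restrict P) ∘ fun n => P \ C n) atTop (𝓝 0) := by
    refine tendsto_of_tendsto_of_tendsto_of_le_of_le tendsto_const_nhds
      ENNReal.tendsto_inv_nat_nhds_zero (fun _ => zero_le) fun n => ?_
    exact (Measure.restrict_apply_le _ _).trans (hv n).le
  have h3 := Integrable.tendsto_setIntegral_nhds_zero hF h2
  have h4 : Tendsto (fun n => ∫ z in C n, F z) atTop (𝓝 (∫ z in P, F z)) := by
    have h5 := (tendsto_const_nhds (x := ∫ z in P, F z)).sub h3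
    rw [sub_zero] at h5
    refine h5.congr fun n => ?_
    rw [Measure.restrict_restrict_of_subset diff_subset,
      setIntegral_sdiff (hC n).measurableSet hF (hCP n)]
    ring
  exact le_of_tendsto' h4.abs fun n => h _ (hCP n) (hC n)

theorem Rep.abs_le [BorelSpace X] {T : Functional X k} {E φ θ} (h : Rep T E φ θ) (i : ℕ)
    {μ : Measure X} [IsFiniteMeasure μ] (hμ : Controls T μ) {P : Set (Euc k)} (hPE : P ⊆ E i)
    (hP : MeasurableSet P) {π : Fin k → X → ℝ} (hπ : ∀ a, LipschitzWith 1 (π a)) :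
    ENNReal.ofReal |∫ z in P, (θ i z : ℝ) * jacOn (E i) (φ i) π z| ≤ μ (φ i '' P) := by
  obtain ⟨L, hL⟩ := h.lip i
  rw [← ofReal_measureReal (measure_ne_top μ (φ i '' P))]
  refine ENNReal.ofReal_le_ofReal (abs_setIntegral_le_of_compact hP
    (ne_top_of_le_ne_top (h.fin i) (measure_mono hPE))
    ((kbext_jac (h.meas i) hL (h.int i) hπ).mono_set hPE) fun C hCP hC => ?_)
  rcases C.eq_empty_or_nonempty with rfl | hne
  · simp
  have hK : IsClosed (φ i '' C) :=
    (hC.image_of_continuousOn (hL.continuousOn.mono (hCP.trans hPE))).isClosed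
  have h1 := (h.tendsto_cut i hC hne (hCP.trans hPE) hπ).abs
  have h2 : Tendsto (fun m => ∫ x, |cutF (φ i '' C) m x| ∂μ) atTop
      (𝓝 (∫ x, |(φ i '' C).indicator (1 : X → ℝ) x| ∂μ)) :=
    tendsto_integral_of_dominated_convergence (fun _ => 1)
      (fun m => (lip_cutF _ m).continuous.abs.aestronglyMeasurable) (integrable_const _)
      (fun m => Eventually.of_forall fun x => by simpa using abs_cutF_le _ m x)
      (Eventually.of_forall fun x => (tendsto_cutF hK (hne.image _) x).abs)
  have h3 := le_of_tendsto_of_tendsto' h1 h2 fun m => hμ _ _ (test_cutF _ m hπ) hπ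
  have h4 : ∫ x, |(φ i '' C).indicator (1 : X → ℝ) x| ∂μ = μ.real (φ i '' C) := by
    rw [← integral_indicator_one hK.measurableSet]
    refine integral_congr_ae (Eventually.of_forall fun x => abs_of_nonneg ?_)
    exact indicator_nonneg (fun _ _ => zero_le_one) x
  exact (h3.trans h4.le).trans (measureReal_mono (image_mono hCP))

theorem Rep.eq_zero {T : Functional X k} {E φ θ} (h : Rep T E φ θ) (i : ℕ) {K : Set X}
    (hK : IsClosed K) (hTK : IsSupportedIn K T) {P : Set (Euc k)} (hPE : P ⊆ E i ∩ φ i ⁻¹' Kᶜ)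
    (hP : MeasurableSet P) {π : Fin k → X → ℝ} (hπ : ∀ a, LipschitzWith 1 (π a)) :
    ∫ z in P, (θ i z : ℝ) * jacOn (E i) (φ i) π z = 0 := by
  obtain ⟨L, hL⟩ := h.lip i
  have hPE' : P ⊆ E i := fun z hz => (hPE hz).1
  refine abs_nonpos_iff.1 (abs_setIntegral_le_of_compact hP
    (ne_top_of_le_ne_top (h.fin i) (measure_mono hPE'))
    ((kbext_jac (h.meas i) hL (h.int i) hπ).mono_set hPE') fun C hCP hC => ?_)
  rcases C.eq_empty_or_nonempty with rfl | hne
  · simp
  have hK' : IsCompact (φ i '' C) := hC.image_of_continuousOn (hL.continuousOn.mono (hCP.trans hPE'))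
  have hd : Disjoint (φ i '' C) K := by
    rw [disjoint_left]
    rintro _ ⟨z, hz, rfl⟩
    exact (hPE (hCP hz)).2
  obtain ⟨δ, hδ, hth⟩ := hd.exists_thickenings hK' hK
  have h1 := h.tendsto_cut i hC hne (hCP.trans hPE') hπ
  have h2 : Tendsto (fun m => T (cutF (φ i '' C) m) π) atTop (𝓝 0) := by
    refine tendsto_const_nhds.congr' ?_
    filter_upwards [(tendsto_natCast_atTop_atTop (R := ℝ)).eventually_ge_atTop (1 / δ)] with m hm
    refine (hTK _ _ (test_cutF _ m hπ) fun x hx => ?_).symm
    have h3 : x ∉ thickening δ (φ i '' C) := fun hm =>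
      hth.notMem_of_mem_left hm (self_subset_thickening hδ K hx)
    rw [mem_thickening_iff_infDist_lt (hne.image _), not_lt] at h3
    rw [div_le_iff₀ hδ] at hm
    have h4 : (m : ℝ) * δ ≤ m * infDist x (φ i '' C) := by gcongr
    exact max_eq_left (by linarith)
  rw [tendsto_nhds_unique h1 h2, abs_zero]

end Crest.Agent.R241
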