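import Crest.Agent.R241.Calc

/-!
# Block E (owner helper36): seminorms with the parallelogram law.  Helper prefix `kbpar_`.
-/

open MeasureTheory Set Filter Topology Metric
open Crest.GeometryTopology.MetricCurrent
open Crest.GeometryTopology.Submanifold (Euc)
open scoped ENNReal NNReal InnerProductSpace

noncomputable section

namespace Crest.Agent.R241

universe u

variable {k : ℕ}

/-- the Gram matrix of a function `N` (polarisation) -/
def gramN (N : Euc k → ℝ) : Matrix (Fin k) (Fin k) ℝ := Matrix.of fun a b =>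
  (N (EuclideanSpace.single a 1 + EuclideanSpace.single b 1) ^ 2
    - N (EuclideanSpace.single a 1 - EuclideanSpace.single b 1) ^ 2) / 4

/-- `M = LinearMap.toMatrix b b A` for `b = (EuclideanSpace.basisFun (Fin k) ℝ).toBasis`; the Gram
matrix is `Mᵀ * M`; `LinearMap.det_toMatrix`. -/
theorem det_gram (A : Euc k →L[ℝ] Euc k) : (Matrix.of fun a b =>
    ⟪A (EuclideanSpace.single a 1), A (EuclideanSpace.single b 1)⟫_ℝ).det = A.det ^ 2 := by
  set b := (EuclideanSpace.basisFun (Fin k) ℝ).toBasis with hb
  set M := LinearMap.toMatrix b b (A : Euc k →ₗ[ℝ] Euc k) with hM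
  have h1 : M.det = A.det := LinearMap.det_toMatrix b _
  have h2 : (Matrix.of fun a b =>
      ⟪A (EuclideanSpace.single a 1), A (EuclideanSpace.single b 1)⟫_ℝ) = M.transpose * M := by
    ext i j
    simp [hM, hb, Matrix.mul_apply, LinearMap.toMatrix_apply, PiLp.inner_apply, mul_comm]
  rw [h2, Matrix.det_mul, Matrix.det_transpose, h1, sq]

/-- `inner_eq_norm_add_mul_self_sub_norm_sub_mul_self_div_four`-type polarisation + `det_gram` -/
theorem sqrt_det_gramN (A : Euc k →L[ℝ] Euc k) : √(gramN fun v => ‖A v‖).det = |A.det| := by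
  rw [← Real.sqrt_sq_eq_abs, ← det_gram]
  congr 2
  ext a b
  simp only [gramN, Matrix.of_apply, map_add, map_sub, norm_add_sq_real, norm_sub_sq_real]
  ring

/-- Jordan–von Neumann.  Recipe: `q = N²` is even, `q (t • v) = t² q v`; the inequality for
`(u+v)/2, (u-v)/2` gives equality in the parallelogram law; `b u v = (q (u+v) - q (u-v))/4` is
symmetric, additive in `u` (four parallelogram identities for `u ± v, u'` and `u' ± v, u`),
continuous, hence linear (`AddMonoidHom.toRealLinearMap`), `b v v = q v`; `G = gramN N` is positive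
semidefinite with `q v = ∑ G a b v a v b`; write `G = Bᵀ B`
(`Matrix.posSemidef_iff_eq_conjTranspose_mul_self` or `CFC.sqrt`), `A = Matrix.toEuclideanCLM B`. -/
theorem exists_clm_of_par {N : Euc k → ℝ} (h0 : ∀ v, 0 ≤ N v) (hc : Continuous N)
    (hs : ∀ (t : ℝ) v, N (t • v) = |t| * N v)
    (hp : ∀ u v, N (u + v) ^ 2 + N (u - v) ^ 2 ≤ 2 * N u ^ 2 + 2 * N v ^ 2) :
    ∃ A : Euc k →L[ℝ] Euc k, ∀ v, N v = ‖A v‖ := by
  set q : Euc k → ℝ := fun v => N v ^ 2 with hq
  have hqs : ∀ (t : ℝ) v, q (t • v) = t ^ 2 * q v := fun t v => by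
    simp only [hq, hs, mul_pow, sq_abs]
  have hqn : ∀ v, q (-v) = q v := fun v => by
    have := hqs (-1) v
    simpa using this
  have hpar : ∀ u v, q (u + v) + q (u - v) = 2 * q u + 2 * q v := by
    intro u v
    refine le_antisymm (hp u v) ?_
    have h1 := hp (u + v) (u - v)
    have e1 : u + v + (u - v) = (2 : ℝ) • u := by rw [two_smul]; abel
    have e2 : u + v - (u - v) = (2 : ℝ) • v := by rw [two_smul]; abel
    rw [e1, e2] at h1
    have h2 := hqs 2 u
    have h3 := hqs 2 v
    simp only [hq] at h2 h3 ⊢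
    linarith
  set b : Euc k → Euc k → ℝ := fun u v => (q (u + v) - q (u - v)) / 4 with hb
  have hsymm : ∀ u v, b u v = b v u := fun u v => by
    simp only [hb]
    rw [add_comm u v, ← hqn (u - v), neg_sub]
  have hadd : ∀ v u u', b (u + u') v = b u v + b u' v := by
    intro v u u'
    have h1 := hpar (u + v) u'
    have h2 := hpar (u' + v) u
    have h3 := hpar (u - v) u'
    have h4 := hpar (u' - v) u
    have e1 : q (u + v - u') = q (u' - v - u) := by rw [← hqn]; congr 1; abel
    have e2 : q (u' + v - u) = q (u - v - u') := by rw [← hqn]; congr 1; abel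
    have e3 : u + v + u' = u + u' + v := by abel
    have e4 : u' + v + u = u + u' + v := by abel
    have e5 : u - v + u' = u + u' - v := by abel
    have e6 : u' - v + u = u + u' - v := by abel
    rw [e3] at h1
    rw [e4] at h2
    rw [e5] at h3
    rw [e6] at h4
    simp only [hb]
    linarith
  have hqc : Continuous q := hc.pow 2
  have hlin : ∀ v, ∃ l : Euc k →L[ℝ] ℝ, ∀ u, l u = b u v := fun v =>
    ⟨(AddMonoidHom.mk' (fun u => b u v) (hadd v)).toRealLinearMap (by
      change Continuous fun u => (q (u + v) - q (u - v)) / 4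
      fun_prop), fun u => rfl⟩
  choose l hl using hlin
  have hexp : ∀ u : Euc k, u = ∑ a, u a • EuclideanSpace.single a (1 : ℝ) := fun u => by
    simpa using ((EuclideanSpace.basisFun (Fin k) ℝ).sum_repr u).symm
  have hb1 : ∀ u v : Euc k, b u v = ∑ a, u a * b (EuclideanSpace.single a 1) v := by
    intro u v
    rw [← hl]
    conv_lhs => rw [hexp u]
    rw [map_sum]
    refine Finset.sum_congr rfl fun a _ => ?_
    rw [map_smul, smul_eq_mul, hl]
  set G := gramN N with hG
  have hGab : ∀ a c, G a c = b (EuclideanSpace.single a 1) (EuclideanSpace.single c 1) :=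
    fun a c => rfl
  have hquad : ∀ v : Euc k, q v = dotProduct v.ofLp (G.mulVec v.ofLp) := by
    intro v
    have h1 : b v v = q v := by
      have h2 := hqs 2 v
      have h3 := hqs 0 v
      rw [two_smul] at h2
      rw [zero_smul] at h3
      simp only [hb, sub_self]
      linarith
    rw [← h1, hb1]
    simp only [dotProduct, Matrix.mulVec, hGab]
    refine Finset.sum_congr rfl fun a _ => ?_
    rw [hsymm, hb1]
    congr 1
    refine Finset.sum_congr rfl fun c _ => ?_
    rw [hsymm, mul_comm]
  have hpsd : G.PosSemidef := by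
    refine Matrix.PosSemidef.of_dotProduct_mulVec_nonneg ?_ fun x => ?_
    · ext a c
      simp only [Matrix.conjTranspose_apply, star_trivial, hGab]
      exact hsymm _ _
    · have := hquad (WithLp.toLp 2 x)
      rw [star_trivial]
      simp only at this
      rw [← this]
      exact sq_nonneg _
  open scoped MatrixOrder in
  obtain ⟨B, hB⟩ := CStarAlgebra.nonneg_iff_eq_star_mul_self.mp hpsd.nonneg
  refine ⟨Matrix.toEuclideanCLM (𝕜 := ℝ) B, fun v => ?_⟩
  rw [← sq_eq_sq₀ (h0 v) (norm_nonneg _), EuclideanSpace.real_norm_sq_eq]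
  change q v = _
  rw [hquad, hB, ← Matrix.mulVec_mulVec, Matrix.dotProduct_mulVec]
  simp only [Matrix.ofLp_toEuclideanCLM, Matrix.star_eq_conjTranspose,
    Matrix.conjTranspose_eq_transpose_of_trivial, Matrix.vecMul_transpose, dotProduct, sq]

end Crest.Agent.R241
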