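import Crest.Agent.R241.KB.MD
import Crest.Agent.R241.KB.Par
import Crest.Agent.R241.HypA

/-!
# Block E (owner helper36): Kirchheim's theorem for maps into CAT(0) spaces.  Helper prefix `kbkd_`.
-/

open MeasureTheory Set Filter Topology Metric
open Crest.GeometryTopology.MetricCurrent
open Crest.GeometryTopology.Submanifold (Euc)
open scoped ENNReal NNReal InnerProductSpace

noncomputable section

namespace Crest.Agent.R241

universe u

variable {X : Type u} [MetricSpace X] {k : ℕ}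

/-- two-point expansion of `φ` at `z` -/
def TwoPt (E : Set (Euc k)) (φ : Euc k → X) (N : Euc k → ℝ) (z : Euc k) : Prop :=
  ∀ ε > 0, ∀ᶠ r in 𝓝[>] (0 : ℝ), ∀ y ∈ E ∩ closedBall z r, ∀ y' ∈ E ∩ closedBall z r,
    |dist (φ y') (φ y) - N (y' - y)| ≤ ε * r

theorem exists_twoPt [ProperSpace X] {E : Set (Euc k)} {φ : Euc k → X} {L : ℝ≥0}
    (hφ : LipschitzOnWith L φ E) : ∃ Φ : ℕ → Euc k → ℝ, (∀ l, LipschitzWith L (Φ l)) ∧
      ∀ᵐ z : Euc k, TwoPt E φ (mdf Φ z) z := by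
  haveI : Nonempty X := ⟨φ 0⟩
  set x := TopologicalSpace.denseSeq X with hx
  have h1 : ∀ l, ∃ g : Euc k → ℝ, LipschitzWith L g ∧ EqOn (fun z => dist (x l) (φ z)) g E := by
    intro l
    have := (LipschitzWith.dist_right (x l)).comp_lipschitzOnWith hφ
    rw [one_mul] at this
    exact LipschitzOnWith.extend_real this
  choose Φ hΦ hΦe using h1
  refine ⟨Φ, hΦ, ?_⟩
  have hle : ∀ y ∈ E, ∀ y' ∈ E, ∀ l, |Φ l y' - Φ l y| ≤ dist (φ y') (φ y) := by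
    intro y hy y' hy' l
    rw [← hΦe l hy, ← hΦe l hy']
    simp only [dist_comm (x l)]
    exact abs_dist_sub_le _ _ _
  have hge : ∀ y ∈ E, ∀ y' ∈ E, ∀ M, (∀ l, |Φ l y' - Φ l y| ≤ M) → dist (φ y') (φ y) ≤ M := by
    intro y hy y' hy' M hM
    refine le_of_forall_pos_le_add fun η hη => ?_
    obtain ⟨l, hl⟩ := (TopologicalSpace.denseRange_denseSeq X).exists_dist_lt (φ y) (half_pos hη)
    have h2 := hM l
    rw [← hΦe l hy, ← hΦe l hy'] at h2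
    have h3 := (abs_le.1 h2).2
    have h4 := dist_triangle_left (φ y') (φ y) (x l)
    rw [dist_comm] at hl
    simp only at h3
    linarith
  filter_upwards [ae_upper hΦ, ae_lower hΦ] with z hu hl ε hε
  filter_upwards [hu ε hε, hl ε hε] with r hu' hl' y hy y' hy'
  rw [abs_le]
  constructor
  · obtain ⟨l, h⟩ := hl' y hy.2 y' hy'.2
    linarith [hle y hy.1 y' hy'.1 l]
  · linarith [hge y hy.1 y' hy'.1 _ (hu' y hy.2 y' hy'.2)]

/-- points of `E` near the ray `z + t v` -/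
theorem kbkd_sel {E : Set (Euc k)} {z v : Euc k}
    (hd : ∀ ε > 0, ∀ᶠ t in 𝓝[>] (0 : ℝ), ∃ z' ∈ E, ‖z' - (z + t • v)‖ ≤ ε * t) :
    ∃ p : ℝ → Euc k, (∀ᶠ t in 𝓝[>] (0 : ℝ), p t ∈ E) ∧
      Tendsto (fun t => t⁻¹ • (p t - z)) (𝓝[>] 0) (𝓝 v) := by
  obtain ⟨t₀, z₀, hz₀, -⟩ := (hd 1 one_pos).exists
  have hne : E.Nonempty := ⟨z₀, hz₀⟩
  have h1 : ∀ t : ℝ, ∃ y, 0 < t → y ∈ E ∧ dist (z + t • v) y < infDist (z + t • v) E + t * t := by
    intro t
    by_cases ht : 0 < t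
    · obtain ⟨y, hy, h⟩ := (infDist_lt_iff hne).1
        (lt_add_of_pos_right (infDist (z + t • v) E) (mul_pos ht ht))
      exact ⟨y, fun _ => ⟨hy, h⟩⟩
    · exact ⟨z, fun h => absurd h ht⟩
  choose p hp using h1
  refine ⟨p, ?_, ?_⟩
  · filter_upwards [self_mem_nhdsWithin] with t ht using (hp t ht).1
  · rw [Metric.tendsto_nhds]
    intro ε hε
    filter_upwards [hd (ε / 2) (half_pos hε), Ioo_mem_nhdsGT (half_pos hε)] with t ⟨y, hy, h⟩ ht
    have h2 := (hp t ht.1).2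
    have h3 : infDist (z + t • v) E ≤ ε / 2 * t := by
      refine (infDist_le_dist_of_mem hy).trans ?_
      rwa [dist_comm, dist_eq_norm]
    have e : t⁻¹ • (p t - z) - v = t⁻¹ • (p t - (z + t • v)) := by
      rw [← sub_sub, smul_sub t⁻¹ (p t - z), inv_smul_smul₀ ht.1.ne']
    rw [dist_eq_norm, e, norm_smul, Real.norm_eq_abs, abs_of_pos (inv_pos.2 ht.1),
      inv_mul_lt_iff₀ ht.1, ← dist_eq_norm, dist_comm]
    have h4 : t * t < t * (ε / 2) := mul_lt_mul_of_pos_left ht.2 ht.1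
    linarith

theorem TwoPt.tendsto {E : Set (Euc k)} {φ : Euc k → X} {N : Euc k → ℝ} {z : Euc k}
    (h : TwoPt E φ N z) (hc : Continuous N) (hs : ∀ (t : ℝ) v, N (t • v) = |t| * N v)
    {p p' : ℝ → Euc k} {w w' : Euc k} (hp : ∀ᶠ t in 𝓝[>] (0 : ℝ), p t ∈ E)
    (hp' : ∀ᶠ t in 𝓝[>] (0 : ℝ), p' t ∈ E)
    (hw : Tendsto (fun t => t⁻¹ • (p t - z)) (𝓝[>] 0) (𝓝 w))
    (hw' : Tendsto (fun t => t⁻¹ • (p' t - z)) (𝓝[>] 0) (𝓝 w')) :
    Tendsto (fun t => dist (φ (p' t)) (φ (p t)) / t) (𝓝[>] 0) (𝓝 (N (w' - w))) := by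
  have h1 := (hc.tendsto _).comp (hw'.sub hw)
  refine h1.congr_dist ?_
  set R : ℝ := ‖w‖ + ‖w'‖ + 1 with hR
  have hR0 : 0 < R := by positivity
  have ht : Tendsto (fun r : ℝ => R * r) (𝓝[>] 0) (𝓝[>] 0) := by
    refine tendsto_nhdsWithin_iff.2 ⟨?_, ?_⟩
    · have : Tendsto (fun r : ℝ => R * r) (𝓝 0) (𝓝 (R * 0)) := tendsto_id.const_mul R
      rw [mul_zero] at this
      exact this.mono_left nhdsWithin_le_nhds
    · filter_upwards [self_mem_nhdsWithin] with r hr using mul_pos hR0 hr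
  have hb : ∀ {p : ℝ → Euc k} {w : Euc k}, Tendsto (fun t => t⁻¹ • (p t - z)) (𝓝[>] 0) (𝓝 w) →
      ‖w‖ < R → ∀ᶠ t in 𝓝[>] (0 : ℝ), p t ∈ closedBall z (R * t) := by
    intro p w hw hlt
    filter_upwards [(tendsto_order.1 hw.norm).2 R hlt, self_mem_nhdsWithin] with t h1 h2
    have h2' : (0 : ℝ) < t := h2
    rw [norm_smul, Real.norm_eq_abs, abs_of_pos (inv_pos.2 h2'), inv_mul_lt_iff₀ h2'] at h1
    rw [mem_closedBall, dist_eq_norm, mul_comm]
    exact h1.le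
  rw [Metric.tendsto_nhds]
  intro ε hε
  filter_upwards [ht.eventually (h (ε / (2 * R)) (by positivity)), hp, hp',
    hb hw (by linarith [norm_nonneg w']), hb hw' (by linarith [norm_nonneg w]),
    self_mem_nhdsWithin] with t h1 h2 h3 h4 h5 h6
  have h6' : (0 : ℝ) < t := h6
  have h7 := h1 _ ⟨h2, h4⟩ _ ⟨h3, h5⟩
  rw [Real.dist_eq, sub_zero, abs_of_nonneg dist_nonneg, Function.comp_apply, ← smul_sub,
    sub_sub_sub_cancel_right, hs, abs_of_pos (inv_pos.2 h6'), Real.dist_eq, abs_sub_comm,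
    ← div_eq_inv_mul, ← sub_div, abs_div, abs_of_pos h6', div_lt_iff₀ h6']
  refine h7.trans_lt ?_
  have : ε / (2 * R) * (R * t) = ε / 2 * t := by field_simp
  rw [this]
  nlinarith

theorem TwoPt.par (H : Hyp 0 X) {E : Set (Euc k)} {φ : Euc k → X} {N : Euc k → ℝ} {z : Euc k}
    (h : TwoPt E φ N z) (hc : Continuous N) (hs : ∀ (t : ℝ) v, N (t • v) = |t| * N v)
    (hd : ∀ v : Euc k, ∀ ε > 0, ∀ᶠ t in 𝓝[>] (0 : ℝ), ∃ z' ∈ E, ‖z' - (z + t • v)‖ ≤ ε * t)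
    (u v : Euc k) : N (u + v) ^ 2 + N (u - v) ^ 2 ≤ 2 * N u ^ 2 + 2 * N v ^ 2 := by
  obtain ⟨p0, e0, t0⟩ := kbkd_sel (hd 0)
  obtain ⟨p1, e1, t1⟩ := kbkd_sel (hd u)
  obtain ⟨p2, e2, t2⟩ := kbkd_sel (hd (u + v))
  obtain ⟨p3, e3, t3⟩ := kbkd_sel (hd v)
  have a20 := h.tendsto hc hs e0 e2 t0 t2
  have a13 := h.tendsto hc hs e3 e1 t3 t1
  have a30 := h.tendsto hc hs e0 e3 t0 t3
  have a21 := h.tendsto hc hs e1 e2 t1 t2
  have a10 := h.tendsto hc hs e0 e1 t0 t1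
  have a23 := h.tendsto hc hs e3 e2 t3 t2
  simp only [sub_zero, add_sub_cancel_left, add_sub_cancel_right] at a20 a30 a21 a10 a23
  have key := le_of_tendsto_of_tendsto ((a20.pow 2).add (a13.pow 2))
    (((a30.pow 2).add (a21.pow 2)).add ((a10.const_mul 2).mul a23)) ?_
  · nlinarith
  filter_upwards [self_mem_nhdsWithin] with t ht
  have ht' : (0 : ℝ) < t := ht
  have hq := H.quad (φ (p0 t)) (φ (p1 t)) (φ (p2 t)) (φ (p3 t))
  rw [dist_comm (φ (p0 t)) (φ (p2 t)), dist_comm (φ (p0 t)) (φ (p3 t)),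
    dist_comm (φ (p1 t)) (φ (p2 t)), dist_comm (φ (p0 t)) (φ (p1 t))] at hq
  have := div_le_div_of_nonneg_right hq (sq_nonneg t)
  refine le_trans (le_of_eq ?_) (this.trans (le_of_eq ?_)) <;> field_simp

theorem exists_md [ProperSpace X] (H : Hyp 0 X) {E : Set (Euc k)} (hE : MeasurableSet E)
    {φ : Euc k → X} {L : ℝ≥0} (hφ : LipschitzOnWith L φ E) :
    ∃ J : Euc k → ℝ, Measurable J ∧ (∀ z, 0 ≤ J z) ∧ ∀ᵐ z ∂volume.restrict E,
      ∃ A : Euc k →L[ℝ] Euc k, J z = |A.det| ∧ ∀ ε > 0, ∀ᶠ z' in 𝓝[E] z,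
        |dist (φ z') (φ z) - ‖A (z' - z)‖| ≤ ε * ‖z' - z‖ := by
  obtain ⟨Φ, hΦ, h2⟩ := exists_twoPt hφ
  refine ⟨fun z => √(gramN (mdf Φ z)).det, ?_, fun z => Real.sqrt_nonneg _, ?_⟩
  · refine Measurable.sqrt ?_
    simp only [Matrix.det_apply', gramN, Matrix.of_apply]
    refine Finset.measurable_sum _ fun s _ => measurable_const.mul
      (Finset.measurable_prod _ fun a _ => ?_)
    exact (((measurable_mdf _).pow_const 2).sub ((measurable_mdf _).pow_const 2)).div_const 4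
  filter_upwards [ae_restrict_of_ae h2, ae_dense_dir hE, ae_restrict_mem hE] with z hz hd hzE
  have hc : Continuous (mdf Φ z) := by
    refine (LipschitzWith.of_le_add_mul L fun u v => ?_).continuous
    rw [dist_eq_norm]
    exact mdf_lip hΦ z u v
  obtain ⟨A, hA⟩ := exists_clm_of_par (mdf_nonneg z) hc (fun t v => mdf_smul z v t)
    (hz.par H hc (fun t v => mdf_smul z v t) hd)
  refine ⟨A, ?_, fun ε hε => ?_⟩
  · rw [← sqrt_det_gramN, funext hA]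
  · obtain ⟨ρ, hρ, h⟩ := (nhdsGT_basis (0 : ℝ)).eventually_iff.1 (hz ε hε)
    filter_upwards [self_mem_nhdsWithin, mem_nhdsWithin_of_mem_nhds (ball_mem_nhds z hρ)]
      with z' hz' hb
    by_cases he : z' = z
    · simp [he]
    have hpos : 0 < ‖z' - z‖ := norm_pos_iff.2 (sub_ne_zero.2 he)
    rw [mem_ball, dist_eq_norm] at hb
    rw [← hA]
    exact h ⟨hpos, hb⟩ z ⟨hzE, mem_closedBall_self hpos.le⟩ z'
      ⟨hz', by rw [mem_closedBall, dist_eq_norm]⟩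

end Crest.Agent.R241
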