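import Crest.Agent.R241.Calc

/-!
# Block E (owner helper36): lower bound for the mass of a chart.  Helper prefix `kblb_`.
-/

open MeasureTheory Set Filter Topology Metric
open Crest.GeometryTopology.MetricCurrent
open Crest.GeometryTopology.Submanifold (Euc)
open scoped ENNReal NNReal InnerProductSpace

noncomputable section

namespace Crest.Agent.R241

universe u

variable {X : Type u} [MetricSpace X] {k : ℕ}

/-- `J` is a lower bound for the Jacobian of `φ` at `z` within `E` -/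
def MinJ (E : Set (Euc k)) (φ : Euc k → X) (z : Euc k) (J : ℝ) : Prop :=
  ∀ δ > 0, ∃ B : Euc k →L[ℝ] Euc k, J - δ ≤ |B.det| ∧
    ∀ᶠ z' in 𝓝[E] z, ‖B (z' - z)‖ ≤ dist (φ z') (φ z)

/-- Recipe: `π a` = McShane extension (`LipschitzOnWith.extend_real`) from `φ '' P` of
`x ↦ B (Function.invFunOn φ P x) a`; `π a (φ z) = B z a` on `P` (no injectivity needed);
`ae_fderivWithin_mono`, `ae_fderivWithin_eq_fderiv`, `LinearMap.det_toMatrix`. -/
theorem exists_coord {E P : Set (Euc k)} (hE : MeasurableSet E) (hP : MeasurableSet P) (hPE : P ⊆ E)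
    {φ : Euc k → X} {L : ℝ≥0} (hφ : LipschitzOnWith L φ E) (B : Euc k →L[ℝ] Euc k)
    (hB : ∀ z ∈ P, ∀ z' ∈ P, ‖B (z' - z)‖ ≤ dist (φ z') (φ z)) :
    ∃ π : Fin k → X → ℝ, (∀ a, LipschitzWith 1 (π a)) ∧
      ∀ᵐ z ∂volume.restrict P, jacOn E φ π z = B.det := by
  have hco : ∀ (v : Euc k) a, |v a| ≤ ‖v‖ := fun v a => by
    simpa using PiLp.norm_apply_le v a
  have h1 : ∀ a : Fin k, ∃ g : X → ℝ, LipschitzWith 1 g ∧
      EqOn (fun x => B (Function.invFunOn φ P x) a) g (φ '' P) := by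
    intro a
    refine LipschitzOnWith.extend_real (LipschitzOnWith.of_dist_le_mul fun x hx x' hx' => ?_)
    have h2 := hB _ (Function.invFunOn_mem hx') _ (Function.invFunOn_mem hx)
    rw [Function.invFunOn_eq hx, Function.invFunOn_eq hx', map_sub] at h2
    rw [NNReal.coe_one, one_mul, Real.dist_eq]
    exact (hco (B _ - B _) a).trans h2
  choose π hπ hπe using h1
  refine ⟨π, hπ, ?_⟩
  set G : Fin k → Euc k →L[ℝ] ℝ := fun a => (EuclideanSpace.proj a).comp B with hG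
  have h2 : ∀ a, EqOn (fun w => π a (φ w)) (G a) P := by
    intro a z hz
    have hx : φ z ∈ φ '' P := mem_image_of_mem φ hz
    have h3 := hB _ hz _ (Function.invFunOn_mem hx)
    rw [Function.invFunOn_eq hx, dist_self, map_sub, norm_le_zero_iff, sub_eq_zero] at h3
    change π a (φ z) = B z a
    rw [← hπe a hx, ← h3]
  have h3 : ∀ a, ∀ᵐ z ∂volume.restrict P, fderivWithin ℝ (fun w => π a (φ w)) E z = G a := by
    intro a
    filter_upwards [ae_fderivWithin_mono hE hP hPE ((hπ a).comp_lipschitzOnWith hφ),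
      ae_fderivWithin_eq_fderiv hP (G a).lipschitz (h2 a)] with z h4 h5
    have h6 : fderivWithin ℝ (fun w => π a (φ w)) E z =
        fderivWithin ℝ (fun w => π a (φ w)) P z := h4.symm
    rw [h6, h5.2.2, (G a).fderiv]
  filter_upwards [ae_all_iff.2 h3] with z hz
  set b := (EuclideanSpace.basisFun (Fin k) ℝ).toBasis with hb
  have h4 : (LinearMap.toMatrix b b (B : Euc k →ₗ[ℝ] Euc k)).det = B.det :=
    LinearMap.det_toMatrix b _
  rw [← h4, jacOn]
  congr 1
  ext a j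
  simp [hz a, hG, hb, LinearMap.toMatrix_apply]

/-- robust form of `MinJ` -/
theorem MinJ.dense {E : Set (Euc k)} {φ : Euc k → X} {C : ℝ}
    (hC : ∀ z ∈ E, ∀ w ∈ E, dist z w ≤ C * dist (φ z) (φ w)) {z : Euc k} (hz : z ∈ E) {J δ : ℝ}
    (h : MinJ E φ z J) (hδ : 0 < δ) {D : ℕ → Euc k →L[ℝ] Euc k} (hD : DenseRange D) :
    ∃ n m : ℕ, J - δ ≤ |(D n).det| ∧
      ∀ z' ∈ E ∩ ball z (1 / (m + 1)), ‖D n (z' - z)‖ ≤ dist (φ z') (φ z) := by
  obtain ⟨B, hB, hev⟩ := h (δ / 2) (half_pos hδ)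
  have hcont : Continuous fun B' : Euc k →L[ℝ] Euc k => |B'.det| :=
    ContinuousLinearMap.continuous_det.abs
  set U : Set (Euc k →L[ℝ] Euc k) := {B' | J - δ < |B'.det|} with hU
  have hUo : IsOpen U := isOpen_lt continuous_const hcont
  have hBU : B ∈ U := by simp only [hU, mem_setOf_eq]; linarith
  have ht : Tendsto (fun η : ℝ => (1 - η) • B) (𝓝[>] 0) (𝓝 B) := by
    have : Continuous fun η : ℝ => (1 - η) • B := by fun_prop
    have h2 := this.tendsto 0
    simp only [sub_zero, one_smul] at h2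
    exact h2.mono_left nhdsWithin_le_nhds
  obtain ⟨η, hη1, hη2⟩ := ((ht.eventually (hUo.mem_nhds hBU)).and (Ioo_mem_nhdsGT one_pos)).exists
  have hC1 : 0 < |C| + 1 := by positivity
  obtain ⟨n, hn1, hn2⟩ := hD.exists_mem_open (hUo.inter isOpen_ball)
    ⟨_, hη1, mem_ball_self (div_pos hη2.1 hC1)⟩
  obtain ⟨ρ, hρ, hρ'⟩ := Metric.mem_nhdsWithin_iff.1 hev
  obtain ⟨m, hm⟩ := exists_nat_one_div_lt hρ
  refine ⟨n, m, le_of_lt hn1, fun z' hz' => ?_⟩
  have h1 : ‖B (z' - z)‖ ≤ dist (φ z') (φ z) := hρ' ⟨ball_subset_ball hm.le hz'.2, hz'.1⟩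
  have h2 : ‖z' - z‖ ≤ (|C| + 1) * dist (φ z') (φ z) := by
    rw [← dist_eq_norm]
    refine (hC _ hz'.1 _ hz).trans ?_
    gcongr
    linarith [le_abs_self C]
  have h3 : ‖(D n - (1 - η) • B) (z' - z)‖ ≤ η / (|C| + 1) * ((|C| + 1) * dist (φ z') (φ z)) := by
    refine (ContinuousLinearMap.le_opNorm _ _).trans ?_
    have h4 : ‖D n - (1 - η) • B‖ ≤ η / (|C| + 1) := by
      rw [← dist_eq_norm]; exact (mem_ball.1 hn2).le
    have := hη2.1
    gcongr
  have e : D n (z' - z) = (D n - (1 - η) • B) (z' - z) + (1 - η) • B (z' - z) := by simp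
  have e2 : η / (|C| + 1) * ((|C| + 1) * dist (φ z') (φ z)) = η * dist (φ z') (φ z) := by
    field_simp
  rw [e]
  refine (norm_add_le _ _).trans ?_
  rw [norm_smul, Real.norm_eq_abs, abs_of_pos (sub_pos.2 hη2.2)]
  have h5 : (1 - η) * ‖B (z' - z)‖ ≤ (1 - η) * dist (φ z') (φ z) := by
    have := sub_pos.2 hη2.2
    gcongr
  linarith

theorem kblb_meas {E : Set (Euc k)} (hE : MeasurableSet E) {φ : Euc k → X} (hφ : ContinuousOn φ E)
    (B : Euc k →L[ℝ] Euc k) (ρ : ℝ) :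
    MeasurableSet {z ∈ E | ∀ z' ∈ E ∩ ball z ρ, ‖B (z' - z)‖ ≤ dist (φ z') (φ z)} := by
  set S := {z ∈ E | ∀ z' ∈ E ∩ ball z ρ, ‖B (z' - z)‖ ≤ dist (φ z') (φ z)} with hS
  have : S = E ∩ closure S := by
    refine Subset.antisymm (fun z hz => ⟨hz.1, subset_closure hz⟩) ?_
    rintro z ⟨hzE, hz⟩
    refine ⟨hzE, fun z' hz' => ?_⟩
    obtain ⟨x, hx, hxz⟩ := mem_closure_iff_seq_limit.1 hz
    have h1 : Tendsto (fun n => φ (x n)) atTop (𝓝 (φ z)) :=
      (hφ z hzE).tendsto.comp (tendsto_nhdsWithin_iff.2 ⟨hxz, Eventually.of_forall fun n => (hx n).1⟩)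
    have h2 : Tendsto (fun n => ‖B (z' - x n)‖) atTop (𝓝 ‖B (z' - z)‖) :=
      ((B.continuous.tendsto _).comp (tendsto_const_nhds.sub hxz)).norm
    refine le_of_tendsto_of_tendsto h2 (tendsto_const_nhds.dist h1) ?_
    have h3 : Tendsto (fun n => dist z' (x n)) atTop (𝓝 (dist z' z)) := tendsto_const_nhds.dist hxz
    filter_upwards [(tendsto_order.1 h3).2 ρ (mem_ball.1 hz'.2)] with n hn
    exact (hx n).2 z' ⟨hz'.1, hn⟩
  rw [this]
  exact hE.inter isClosed_closure.measurableSet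

/-- Recipe: `D` a dense sequence of linear maps.  If `B` works at `z` for `δ/2`, every `B'` close to
`(1 - η) B` works for `δ` (`‖v‖ ≤ C dist`, continuity of `det`).  The sets
`S B m = {z ∈ E | ∀ z' ∈ E ∩ ball z (1/(m+1)), ‖B (z' - z)‖ ≤ dist (φ z') (φ z)}` satisfy
`S = E ∩ closure S`.  Index set `ℕ × ℕ × ℕ × ℤ` (map, radius, centre of a ball of radius
`1/(2(m+1))` from `denseSeq`, value of `θ`), `exists_surjective_nat`, `disjointed`. -/
theorem exists_partition {E A : Set (Euc k)} (hE : MeasurableSet E) (hA : MeasurableSet A)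
    (hAE : A ⊆ E) {φ : Euc k → X} (hφ : ContinuousOn φ E) {C : ℝ}
    (hC : ∀ z ∈ E, ∀ w ∈ E, dist z w ≤ C * dist (φ z) (φ w)) {θ : Euc k → ℤ} (hθ : Measurable θ)
    {J : Euc k → ℝ} (hJ : Measurable J) (hmin : ∀ᵐ z ∂volume.restrict A, MinJ E φ z (J z))
    {δ : ℝ} (hδ : 0 < δ) :
    ∃ (P : ℕ → Set (Euc k)) (B : ℕ → Euc k →L[ℝ] Euc k) (l : ℕ → ℤ),
      (∀ n, MeasurableSet (P n) ∧ P n ⊆ A ∧ (∀ z ∈ P n, θ z = l n ∧ J z - δ ≤ |(B n).det|) ∧
        ∀ z ∈ P n, ∀ z' ∈ P n, ‖B n (z' - z)‖ ≤ dist (φ z') (φ z)) ∧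
      Pairwise (Function.onFun Disjoint P) ∧ ∀ᵐ z ∂volume.restrict A, z ∈ ⋃ n, P n := by
  set D := TopologicalSpace.denseSeq (Euc k →L[ℝ] Euc k) with hD
  set d := TopologicalSpace.denseSeq (Euc k) with hd
  obtain ⟨e, he⟩ := exists_surjective_nat (ℕ × ℕ × ℕ × ℤ)
  set Q : ℕ × ℕ × ℕ × ℤ → Set (Euc k) := fun q =>
    (A ∩ {z ∈ E | ∀ z' ∈ E ∩ ball z (1 / (q.2.1 + 1)), ‖D q.1 (z' - z)‖ ≤ dist (φ z') (φ z)}) ∩
      (ball (d q.2.2.1) (1 / (q.2.1 + 1) / 2) ∩ ({z | θ z = q.2.2.2} ∩ {z | J z - δ ≤ |(D q.1).det|}))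
    with hQ
  have hQm : ∀ q, MeasurableSet (Q q) := fun q =>
    (hA.inter (kblb_meas hE hφ _ _)).inter (measurableSet_ball.inter
      ((hθ (measurableSet_singleton _)).inter
        (measurableSet_le (hJ.sub measurable_const) measurable_const)))
  refine ⟨disjointed fun n => Q (e n), fun n => D (e n).1, fun n => (e n).2.2.2, fun n => ?_,
    disjoint_disjointed _, ?_⟩
  · have hs : disjointed (fun n => Q (e n)) n ⊆ Q (e n) := disjointed_subset _ n
    refine ⟨MeasurableSet.disjointed (fun n => hQm _) n, fun z hz => (hs hz).1.1,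
      fun z hz => ⟨(hs hz).2.2.1, (hs hz).2.2.2⟩, fun z hz z' hz' => ?_⟩
    refine (hs hz).1.2.2 z' ⟨(hs hz').1.2.1, ?_⟩
    have h1 := mem_ball.1 (hs hz).2.1
    have h2 := mem_ball.1 (hs hz').2.1
    have h3 := dist_triangle_right z' z (d (e n).2.2.1)
    rw [mem_ball]
    linarith
  · rw [iUnion_disjointed]
    filter_upwards [hmin, ae_restrict_mem hA] with z hz hzA
    obtain ⟨n, m, h1, h2⟩ := hz.dense hC (hAE hzA) hδ (TopologicalSpace.denseRange_denseSeq _)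
    obtain ⟨j, hj⟩ := (TopologicalSpace.denseRange_denseSeq (Euc k)).exists_dist_lt z
      (ε := 1 / (m + 1) / 2) (by positivity)
    obtain ⟨i, hi⟩ := he (n, m, j, θ z)
    refine mem_iUnion.2 ⟨i, ?_⟩
    rw [hi]
    exact ⟨⟨hzA, hAE hzA, h2⟩, hj, rfl, h1⟩

theorem lower_bound [MeasurableSpace X] [BorelSpace X] {E A : Set (Euc k)} (hE : MeasurableSet E)
    (hfin : volume E ≠ ⊤) (hA : MeasurableSet A) (hAE : A ⊆ E) {φ : Euc k → X} {L : ℝ≥0}
    (hφ : LipschitzOnWith L φ E) {C : ℝ} (hC : ∀ z ∈ E, ∀ w ∈ E, dist z w ≤ C * dist (φ z) (φ w))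
    {θ : Euc k → ℤ} (hθ : Measurable θ) (hθi : IntegrableOn (fun z => (θ z : ℝ)) E)
    {J : Euc k → ℝ} (hJ : Measurable J) (hmin : ∀ᵐ z ∂volume.restrict A, MinJ E φ z (J z))
    (μ : Measure X) (hμ : ∀ P ⊆ A, MeasurableSet P → ∀ π : Fin k → X → ℝ,
      (∀ a, LipschitzWith 1 (π a)) →
      ENNReal.ofReal |∫ z in P, (θ z : ℝ) * jacOn E φ π z| ≤ μ (φ '' P)) :
    ∫⁻ z in A, ENNReal.ofReal (|(θ z : ℝ)| * J z) ≤ μ (φ '' A) := by
  have hinj : InjOn φ E := fun z hz w hw h => by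
    have := hC z hz w hw
    rw [h, dist_self, mul_zero] at this
    exact dist_le_zero.1 this
  have hθr : Measurable fun z => (θ z : ℝ) := (measurable_of_countable _).comp hθ
  set I := ∫⁻ z in A, ENNReal.ofReal |(θ z : ℝ)| with hI
  have hIf : I ≠ ⊤ := by
    have := (hθi.mono_set hAE).2
    rw [hasFiniteIntegral_iff_norm] at this
    exact this.ne
  have key : ∀ δ : ℝ, 0 < δ → ∫⁻ z in A, ENNReal.ofReal (|(θ z : ℝ)| * J z) ≤
      μ (φ '' A) + ENNReal.ofReal δ * I := by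
    intro δ hδ
    obtain ⟨P, B, l, hP, hdis, hcov⟩ := exists_partition hE hA hAE hφ.continuousOn hC hθ hJ hmin hδ
    have h1 : ∀ n, ∫⁻ z in P n, ENNReal.ofReal (|(θ z : ℝ)| * (J z - δ)) ≤ μ (φ '' P n) := by
      intro n
      obtain ⟨hm, hs, hv, hB⟩ := hP n
      obtain ⟨π, hπ, hj⟩ := exists_coord hE hm (hs.trans hAE) hφ (B n) hB
      refine le_trans ?_ (hμ _ hs hm π hπ)
      have hf : volume (P n) ≠ ⊤ := ne_top_of_le_ne_top hfin (measure_mono (hs.trans hAE))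
      have e : ∫ z in P n, (θ z : ℝ) * jacOn E φ π z = ∫ z in P n, (l n : ℝ) * (B n).det := by
        refine integral_congr_ae ?_
        filter_upwards [hj, ae_restrict_mem hm] with z h1 h2
        rw [h1, (hv z h2).1]
      rw [e, setIntegral_const, smul_eq_mul, abs_mul, abs_of_nonneg measureReal_nonneg,
        ENNReal.ofReal_mul measureReal_nonneg, ofReal_measureReal hf, mul_comm, ← setLIntegral_const]
      refine setLIntegral_mono' hm fun z hz => ENNReal.ofReal_le_ofReal ?_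
      rw [(hv z hz).1, abs_mul]
      gcongr
      exact (hv z hz).2
    have hU : (⋃ n, P n) ⊆ A := iUnion_subset fun n => (hP n).2.1
    have h2 : ∫⁻ z in A, ENNReal.ofReal (|(θ z : ℝ)| * (J z - δ)) ≤ μ (φ '' A) := by
      have e : volume.restrict A = volume.restrict (⋃ n, P n) := by
        rw [← Measure.restrict_eq_self_of_ae_mem hcov, Measure.restrict_restrict_of_subset hU]
      rw [e, lintegral_iUnion (fun n => (hP n).1) hdis]
      refine (ENNReal.tsum_le_tsum h1).trans ?_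
      rw [← measure_iUnion]
      · exact measure_mono (iUnion_subset fun n => image_mono (hP n).2.1)
      · intro i j hij
        exact (hdis hij).image hinj ((hP i).2.1.trans hAE) ((hP j).2.1.trans hAE)
      · intro n
        exact (hP n).1.image_of_continuousOn_injOn (hφ.continuousOn.mono ((hP n).2.1.trans hAE))
          (hinj.mono ((hP n).2.1.trans hAE))
    calc ∫⁻ z in A, ENNReal.ofReal (|(θ z : ℝ)| * J z)
        ≤ ∫⁻ z in A, (ENNReal.ofReal (|(θ z : ℝ)| * (J z - δ))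
            + ENNReal.ofReal δ * ENNReal.ofReal |(θ z : ℝ)|) := by
          refine lintegral_mono fun z => ?_
          rw [← ENNReal.ofReal_mul hδ.le]
          refine le_trans (le_of_eq ?_) ENNReal.ofReal_add_le
          congr 1
          ring
      _ = (∫⁻ z in A, ENNReal.ofReal (|(θ z : ℝ)| * (J z - δ))) + ENNReal.ofReal δ * I := by
          rw [lintegral_add_right _ (hθr.abs.ennreal_ofReal.const_mul _),
            lintegral_const_mul _ hθr.abs.ennreal_ofReal]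
      _ ≤ _ := by gcongr
  have ht : Tendsto (fun δ : ℝ => μ (φ '' A) + ENNReal.ofReal δ * I) (𝓝[>] 0)
      (𝓝 (μ (φ '' A) + ENNReal.ofReal 0 * I)) :=
    tendsto_const_nhds.add (ENNReal.Tendsto.mul_const
      ((ENNReal.continuous_ofReal.tendsto 0).mono_left nhdsWithin_le_nhds) (Or.inr hIf))
  rw [ENNReal.ofReal_zero, zero_mul, add_zero] at ht
  refine ge_of_tendsto ht ?_
  filter_upwards [self_mem_nhdsWithin] with δ hδ using key δ hδ

end Crest.Agent.R241
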