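import Crest.Agent.R241.Calc

/-!
# Block E (owner helper36): the metric differential of a countable family of Lipschitz functions.
Helper prefix `kbmd_`.
-/

open MeasureTheory Set Filter Topology Metric
open Crest.GeometryTopology.MetricCurrent
open Crest.GeometryTopology.Submanifold (Euc)
open scoped ENNReal NNReal InnerProductSpace

noncomputable section

namespace Crest.Agent.R241

universe u

variable {k : ℕ} {L : ℝ≥0} {Φ : ℕ → Euc k → ℝ}

/-- Averaged mean value inequality.  Recipe: `h s = ∫ w in closedBall 0 δ, g (y + s • v + w)` has the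
derivative `∫ w in closedBall 0 δ, fderiv ℝ g (y + s • v + w) v` at EVERY `s`
(`hasDerivAt_integral_of_dominated_loc_of_lip`, `LipschitzWith.ae_differentiableAt` transported by
`(measurePreserving_add_left volume c).quasiMeasurePreserving.ae`), so `|h 1 - h 0| ≤ M V`
(`norm_image_sub_le_of_norm_deriv_le_segment_01'`), and `|h s - V g (y + s • v)| ≤ L δ V`. -/
theorem kb_mv {g : Euc k → ℝ} (hg : LipschitzWith L g) (y v : Euc k) {δ M : ℝ} (hδ : 0 < δ)
    (h : ∀ s ∈ Icc (0 : ℝ) 1, ∫ w in closedBall (y + s • v) δ, |fderiv ℝ g w v|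
      ≤ M * volume.real (closedBall (0 : Euc k) δ)) :
    |g (y + v) - g y| ≤ M + 2 * L * δ := by
  set B : Set (Euc k) := closedBall 0 δ with hB
  set V : ℝ := volume.real B with hV
  have hBc : IsCompact B := isCompact_closedBall _ _
  have hBf : volume B ≠ ⊤ := hBc.measure_lt_top.ne
  have hV0 : 0 < V := ENNReal.toReal_pos (measure_closedBall_pos volume _ hδ).ne' hBf
  haveI : IsFiniteMeasure (volume.restrict B) := isFiniteMeasure_restrict.2 hBf
  have hgc := hg.continuous
  set H : ℝ → ℝ := fun s => ∫ w in B, g (y + s • v + w) with hH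
  have hint : ∀ c : Euc k, IntegrableOn (fun w => g (c + w)) B := fun c =>
    (hgc.comp (continuous_const.add continuous_id)).continuousOn.integrableOn_compact hBc
  have hder : ∀ s : ℝ, HasDerivAt H (∫ w in B, fderiv ℝ g (y + s • v + w) v) s := by
    intro s
    refine (hasDerivAt_integral_of_dominated_loc_of_lip (μ := volume.restrict B)
      (F := fun s w => g (y + s • v + w)) (F' := fun w => fderiv ℝ g (y + s • v + w) v)
      (bound := fun _ => L * ‖v‖) (s := univ) univ_mem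
      (Eventually.of_forall fun t => (hint _).aestronglyMeasurable) (hint _) ?_ ?_
      (integrable_const _) ?_).2
    · exact ((measurable_fderiv_apply_const ℝ g v).comp
        (measurable_const.add measurable_id)).aestronglyMeasurable
    · refine Eventually.of_forall fun w => LipschitzOnWith.of_dist_le_mul fun a _ b _ => ?_
      refine (hg.dist_le_mul _ _).trans (le_of_eq ?_)
      rw [dist_add_right, dist_add_left, dist_eq_norm, ← sub_smul, norm_smul, Real.dist_eq,
        Real.coe_nnabs, abs_of_nonneg (by positivity), Real.norm_eq_abs]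
      ring
    · refine ae_restrict_of_ae ?_
      filter_upwards [(measurePreserving_add_left volume (y + s • v)).quasiMeasurePreserving.ae
        hg.ae_differentiableAt] with w hw
      have h1 : HasDerivAt (fun t : ℝ => y + t • v + w) v s := by
        simpa using (((hasDerivAt_id s).smul_const v).const_add y).add_const w
      exact hw.hasFDerivAt.comp_hasDerivAt s h1
  have hbd : ∀ s ∈ Ico (0 : ℝ) 1, ‖∫ w in B, fderiv ℝ g (y + s • v + w) v‖ ≤ M * V := by
    intro s hs
    refine (norm_integral_le_integral_norm _).trans ?_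
    refine le_trans (le_of_eq ?_) (h s (Ico_subset_Icc_self hs))
    have := (measurePreserving_add_left volume (y + s • v)).setIntegral_preimage_emb
      (measurableEmbedding_addLeft _) (fun w => |fderiv ℝ g w v|) (closedBall (y + s • v) δ)
    rw [← this]
    congr 2
    ext w
    simp [hB, mem_closedBall, dist_eq_norm]
  have h1 := norm_image_sub_le_of_norm_deriv_le_segment_01'
    (fun s _ => (hder s).hasDerivWithinAt) hbd
  have h2 : ∀ c : Euc k, |(∫ w in B, g (c + w)) - V * g c| ≤ L * δ * V := by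
    intro c
    have e : (∫ w in B, g (c + w)) - V * g c = ∫ w in B, (g (c + w) - g c) := by
      rw [integral_sub (hint c) (integrable_const _), setIntegral_const, smul_eq_mul]
    rw [e]
    rw [← Real.norm_eq_abs]
    refine norm_setIntegral_le_of_norm_le_const hBf.lt_top fun w hw => ?_
    have := hg.dist_le_mul (c + w) c
    rw [dist_self_add_left] at this
    refine this.trans ?_
    have hw' : ‖w‖ ≤ δ := by simpa [hB] using hw
    gcongr
  have h3 := h2 (y + v)
  have h4 := h2 y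
  simp only [hH, one_smul, zero_smul, add_zero, Real.norm_eq_abs] at h1
  have h5 : V * |g (y + v) - g y| ≤ V * (M + 2 * L * δ) := by
    rw [← abs_of_pos hV0, ← abs_mul, abs_of_pos hV0]
    rw [abs_le] at h1 h3 h4 ⊢
    constructor <;> nlinarith [h1.1, h1.2, h3.1, h3.2, h4.1, h4.2]
  exact le_of_mul_le_mul_left h5 hV0

/-- the metric differential -/
def mdf (Φ : ℕ → Euc k → ℝ) (z v : Euc k) : ℝ := ⨆ l, |fderiv ℝ (Φ l) z v|

theorem kbmd_abs_fderiv_le (hΦ : ∀ l, LipschitzWith L (Φ l)) (l : ℕ) (z v : Euc k) :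
    |fderiv ℝ (Φ l) z v| ≤ L * ‖v‖ :=
  ((fderiv ℝ (Φ l) z).le_opNorm v).trans
    (mul_le_mul_of_nonneg_right (norm_fderiv_le_of_lipschitz ℝ (hΦ l)) (norm_nonneg _))

theorem le_mdf (hΦ : ∀ l, LipschitzWith L (Φ l)) (l : ℕ) (z v : Euc k) :
    |fderiv ℝ (Φ l) z v| ≤ mdf Φ z v :=
  le_ciSup (f := fun l => |fderiv ℝ (Φ l) z v|)
    ⟨L * ‖v‖, by rintro _ ⟨l, rfl⟩; exact kbmd_abs_fderiv_le hΦ l z v⟩ l

theorem mdf_le (hΦ : ∀ l, LipschitzWith L (Φ l)) (z v : Euc k) : mdf Φ z v ≤ L * ‖v‖ :=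
  ciSup_le fun l => kbmd_abs_fderiv_le hΦ l z v

theorem mdf_nonneg (z v : Euc k) : 0 ≤ mdf Φ z v := Real.iSup_nonneg fun _ => abs_nonneg _

theorem mdf_add_le (hΦ : ∀ l, LipschitzWith L (Φ l)) (z u v : Euc k) :
    mdf Φ z (u + v) ≤ mdf Φ z u + mdf Φ z v :=
  ciSup_le fun l => by
    rw [map_add]
    exact (abs_add_le _ _).trans (add_le_add (le_mdf hΦ l z u) (le_mdf hΦ l z v))

theorem mdf_smul (z v : Euc k) (t : ℝ) : mdf Φ z (t • v) = |t| * mdf Φ z v := by
  simp only [mdf, map_smul, smul_eq_mul, abs_mul]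
  rw [Real.mul_iSup_of_nonneg (abs_nonneg t)]

theorem mdf_lip (hΦ : ∀ l, LipschitzWith L (Φ l)) (z u v : Euc k) :
    mdf Φ z u ≤ mdf Φ z v + L * ‖u - v‖ := by
  have h := mdf_add_le hΦ z v (u - v)
  rw [add_sub_cancel] at h
  linarith [mdf_le hΦ z (u - v)]

theorem measurable_mdf (v : Euc k) : Measurable fun z => mdf Φ z v :=
  Measurable.iSup fun l => (measurable_fderiv_apply_const ℝ (Φ l) v).abs

/-- Upper bound in one direction.  Recipe: `z` a Lebesgue point of `w ↦ mdf Φ w n` (bounded and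
measurable; `(Besicovitch.vitaliFamily volume).ae_tendsto_average_norm_sub` composed with
`Besicovitch.tendsto_filterAt`).  Apply `kb_mv` to `Φ l`, `v = r • n`, radius `δ r` (`δ ≤ 1`,
`2 L δ ≤ ε/2`): `|fderiv (Φ l) w (r • n)| ≤ r (mdf z n + |mdf w n - mdf z n|)`, the small ball lies in
`closedBall z ((‖n‖ + 2) r)`, whose volume is `((‖n‖ + 2)/δ)^k` times that of the small ball
(`Measure.addHaar_real_closedBall`). -/
theorem ae_upper_dir (hΦ : ∀ l, LipschitzWith L (Φ l)) (n : Euc k) :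
    ∀ᵐ z : Euc k, ∀ ε > 0, ∀ᶠ r in 𝓝[>] (0 : ℝ), ∀ y ∈ closedBall z r, ∀ l,
      |Φ l (y + r • n) - Φ l y| ≤ r * mdf Φ z n + ε * r := by
  have hloc : LocallyIntegrable (fun w => mdf Φ w n) := by
    intro x
    refine ⟨closedBall x 1, closedBall_mem_nhds x one_pos, ?_⟩
    refine Measure.integrableOn_of_bounded (M := L * ‖n‖)
      (isCompact_closedBall x 1).measure_lt_top.ne (measurable_mdf n).aestronglyMeasurable
      (Eventually.of_forall fun w => ?_)
    rw [Real.norm_eq_abs, abs_of_nonneg (mdf_nonneg _ _)]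
    exact mdf_le hΦ w n
  filter_upwards [(Besicovitch.vitaliFamily volume).ae_tendsto_average_norm_sub hloc] with z hz ε hε
  have hz' := hz.comp (Besicovitch.tendsto_filterAt volume z)
  set R : ℝ := ‖n‖ + 2 with hR
  have hR0 : 0 < R := by positivity
  set δ : ℝ := min 1 (ε / (4 * (L + 1))) with hδ
  have hδ0 : 0 < δ := by positivity
  have hδ1 : δ ≤ 1 := min_le_left _ _
  have hδ2 : 2 * L * δ ≤ ε / 2 := by
    have h1 : δ ≤ ε / (4 * (L + 1)) := min_le_right _ _
    rw [le_div_iff₀ (by positivity)] at h1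
    nlinarith [L.coe_nonneg]
  have ht : Tendsto (fun r : ℝ => R * r) (𝓝[>] 0) (𝓝[>] 0) := by
    refine tendsto_nhdsWithin_iff.2 ⟨?_, ?_⟩
    · have : Tendsto (fun r : ℝ => R * r) (𝓝 0) (𝓝 (R * 0)) := tendsto_id.const_mul R
      rw [mul_zero] at this
      exact this.mono_left nhdsWithin_le_nhds
    · filter_upwards [self_mem_nhdsWithin] with r hr using mul_pos hR0 hr
  have hη : 0 < ε / 2 * (δ / R) ^ k := by positivity
  filter_upwards [(tendsto_order.1 (hz'.comp ht)).2 _ hη, self_mem_nhdsWithin] with r hr hr0 y hy l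
  have hr0' : (0 : ℝ) < r := hr0
  simp only [Function.comp_apply] at hr
  have key := kb_mv (hΦ l) y (r • n) (δ := δ * r) (M := r * mdf Φ z n + ε / 2 * r)
    (by positivity) ?_
  · nlinarith
  intro s hs
  set c := y + s • r • n with hc
  have hsub : closedBall c (δ * r) ⊆ closedBall z (R * r) := by
    apply closedBall_subset_closedBall'
    have h1 : dist c y ≤ ‖n‖ * r := by
      rw [hc, dist_self_add_left, norm_smul, norm_smul, Real.norm_eq_abs, Real.norm_eq_abs,
        abs_of_nonneg hs.1, abs_of_pos hr0']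
      have : s * (r * ‖n‖) ≤ 1 * (r * ‖n‖) := by gcongr; exact hs.2
      linarith
    have h2 := dist_triangle c y z
    have h3 := mem_closedBall.1 hy
    have h4 : δ * r ≤ 1 * r := by gcongr
    rw [hR]; linarith
  set ω : ℝ := volume.real (ball (0 : Euc k) 1) with hω
  have hω0 : 0 < ω :=
    ENNReal.toReal_pos (measure_ball_pos volume _ one_pos).ne' measure_ball_lt_top.ne
  have hv : ∀ (x : Euc k) (t : ℝ), 0 ≤ t → volume.real (closedBall x t) = t ^ k * ω := by
    intro x t ht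
    rw [Measure.addHaar_real_closedBall _ _ ht, finrank_euclideanSpace_fin]
  have i1 : IntegrableOn (fun w => ‖mdf Φ w n - mdf Φ z n‖) (closedBall z (R * r)) :=
    ((hloc.integrableOn_isCompact (isCompact_closedBall _ _)).sub
      (integrableOn_const (isCompact_closedBall _ _).measure_lt_top.ne)).norm
  have h1 : ∫ w in closedBall z (R * r), ‖mdf Φ w n - mdf Φ z n‖ ≤ ε / 2 * ((δ * r) ^ k * ω) := by
    rw [setAverage_eq, hv _ _ (by positivity), smul_eq_mul, inv_mul_lt_iff₀ (by positivity)] at hr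
    refine hr.le.trans (le_of_eq ?_)
    rw [div_pow, mul_pow, mul_pow]
    field_simp
  have h2 : ∫ w in closedBall c (δ * r), ‖mdf Φ w n - mdf Φ z n‖ ≤
      ∫ w in closedBall z (R * r), ‖mdf Φ w n - mdf Φ z n‖ :=
    setIntegral_mono_set i1 (Eventually.of_forall fun w => norm_nonneg _) hsub.eventuallyLE
  have hfin : volume (closedBall c (δ * r)) ≠ ⊤ := (isCompact_closedBall _ _).measure_lt_top.ne
  have h3 : ∫ w in closedBall c (δ * r), |fderiv ℝ (Φ l) w (r • n)| ≤
      ∫ w in closedBall c (δ * r), (r * mdf Φ z n + r * ‖mdf Φ w n - mdf Φ z n‖) := by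
    refine integral_mono_of_nonneg (Eventually.of_forall fun w => abs_nonneg _)
      ((integrableOn_const hfin).add ((i1.mono_set hsub).const_mul r))
      (Eventually.of_forall fun w => ?_)
    have a1 := le_mdf hΦ l w (r • n)
    rw [mdf_smul, abs_of_pos hr0'] at a1
    have a2 : mdf Φ w n ≤ mdf Φ z n + ‖mdf Φ w n - mdf Φ z n‖ := by
      have := le_abs_self (mdf Φ w n - mdf Φ z n)
      rw [Real.norm_eq_abs]; linarith
    have a3 : r * mdf Φ w n ≤ r * (mdf Φ z n + ‖mdf Φ w n - mdf Φ z n‖) := by gcongr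
    simp only
    linarith
  have i2 : Integrable (fun _ : Euc k => r * mdf Φ z n) (volume.restrict (closedBall c (δ * r))) :=
    integrableOn_const hfin
  rw [integral_add i2 ((i1.mono_set hsub).const_mul r), setIntegral_const,
    integral_const_mul, hv _ _ (by positivity), smul_eq_mul] at h3
  rw [hv _ _ (by positivity)]
  have h4 : r * ∫ w in closedBall c (δ * r), ‖mdf Φ w n - mdf Φ z n‖ ≤
      r * (ε / 2 * ((δ * r) ^ k * ω)) := by gcongr; exact h2.trans h1
  linarith

theorem kbmd_dir {z y y' : Euc k} {r : ℝ} (hr : 0 < r) (hy : y ∈ closedBall z r)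
    (hy' : y' ∈ closedBall z r) : ∃ u, y' - y = r • u ∧ u ∈ closedBall (0 : Euc k) 2 := by
  refine ⟨r⁻¹ • (y' - y), by rw [smul_inv_smul₀ hr.ne'], ?_⟩
  rw [mem_closedBall, dist_zero_right, norm_smul, Real.norm_eq_abs, abs_of_pos (inv_pos.2 hr),
    inv_mul_le_iff₀ hr, ← dist_eq_norm]
  have := dist_triangle_right y' y z
  have := mem_closedBall.1 hy
  have := mem_closedBall.1 hy'
  linarith

/-- Upper bound.  Recipe: `ae_upper_dir` for `n = denseSeq (Euc k) j` (`ae_all_iff`); cover the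
compact `closedBall 0 2` by finitely many `ball (denseSeq j) ε₁`; `y' - y = r • u`, `‖u‖ ≤ 2`. -/
theorem ae_upper (hΦ : ∀ l, LipschitzWith L (Φ l)) :
    ∀ᵐ z : Euc k, ∀ ε > 0, ∀ᶠ r in 𝓝[>] (0 : ℝ), ∀ y ∈ closedBall z r, ∀ y' ∈ closedBall z r, ∀ l,
      |Φ l y' - Φ l y| ≤ mdf Φ z (y' - y) + ε * r := by
  set d := TopologicalSpace.denseSeq (Euc k) with hd
  filter_upwards [ae_all_iff.2 fun j => ae_upper_dir hΦ (d j)] with z hz ε hε
  set ε₁ : ℝ := ε / (2 * L + 1) with hε₁
  have h0 : 0 < ε₁ := by positivity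
  obtain ⟨t, ht⟩ := (isCompact_closedBall (0 : Euc k) 2).elim_finite_subcover
    (fun j => ball (d j) ε₁) (fun _ => isOpen_ball) fun u _ => by
      obtain ⟨j, hj⟩ := (TopologicalSpace.denseRange_denseSeq (Euc k)).exists_dist_lt u h0
      exact mem_iUnion.2 ⟨j, hj⟩
  filter_upwards [(eventually_all_finset t).2 fun j _ => hz j ε₁ h0, self_mem_nhdsWithin]
    with r hr hr0 y hy y' hy' l
  have hr0' : (0 : ℝ) < r := hr0
  obtain ⟨u, hu, hu2⟩ := kbmd_dir hr0' hy hy'
  obtain ⟨j, hj, hju⟩ := mem_iUnion₂.1 (ht hu2)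
  have hju' : ‖u - d j‖ ≤ ε₁ := by rw [← dist_eq_norm]; exact (mem_ball.1 hju).le
  have h1 := hr j hj y hy l
  have h2 : |Φ l y' - Φ l (y + r • d j)| ≤ L * (r * ε₁) := by
    refine ((hΦ l).dist_le_mul _ _).trans ?_
    rw [dist_eq_norm, show y' - (y + r • d j) = r • (u - d j) by rw [smul_sub, ← hu]; abel,
      norm_smul, Real.norm_eq_abs, abs_of_pos hr0']
    gcongr
  have h3 : mdf Φ z (d j) ≤ mdf Φ z u + L * ε₁ := by
    refine (mdf_lip hΦ z (d j) u).trans ?_
    rw [norm_sub_rev]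
    gcongr
  have h4 := abs_sub_le (Φ l y') (Φ l (y + r • d j)) (Φ l y)
  rw [hu, mdf_smul, abs_of_pos hr0']
  have h5 : r * mdf Φ z (d j) ≤ r * (mdf Φ z u + L * ε₁) := by gcongr
  have h6 : ε * r = (2 * L + 1) * ε₁ * r := by rw [hε₁]; field_simp
  rw [h6]
  linarith

/-- Lower bound.  Recipe: all `Φ l` are differentiable at `z`; finite `ε₁`-net of `closedBall 0 2`,
for each `n` of the net an `l` with `mdf z n - ε₁ < |fderiv (Φ l) z n|` (`exists_lt_of_lt_ciSup`);
`HasFDerivAt.isLittleO` at `y` and `y'`. -/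
theorem ae_lower (hΦ : ∀ l, LipschitzWith L (Φ l)) :
    ∀ᵐ z : Euc k, ∀ ε > 0, ∀ᶠ r in 𝓝[>] (0 : ℝ), ∀ y ∈ closedBall z r, ∀ y' ∈ closedBall z r, ∃ l,
      mdf Φ z (y' - y) ≤ |Φ l y' - Φ l y| + ε * r := by
  filter_upwards [ae_all_iff.2 fun l => (hΦ l).ae_differentiableAt] with z hz ε hε
  set ε₁ : ℝ := ε / (2 * L + 3) with hε₁
  have h0 : 0 < ε₁ := by positivity
  obtain ⟨t, -, htf, ht⟩ := finite_cover_balls_of_compact (isCompact_closedBall (0 : Euc k) 2) h0
  have hl : ∀ n : Euc k, ∃ l, mdf Φ z n - ε₁ < |fderiv ℝ (Φ l) z n| := fun n =>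
    exists_lt_of_lt_ciSup (f := fun l => |fderiv ℝ (Φ l) z n|) (by
      change _ < mdf Φ z n
      linarith)
  choose lf hlf using hl
  have hev : ∀ l, ∀ᶠ r in 𝓝[>] (0 : ℝ), ∀ y ∈ closedBall z r,
      |Φ l y - Φ l z - fderiv ℝ (Φ l) z (y - z)| ≤ ε₁ * r := by
    intro l
    have h1 := (hz l).hasFDerivAt.isLittleO.bound h0
    obtain ⟨ρ, hρ, h2⟩ := Metric.eventually_nhds_iff.1 h1
    filter_upwards [Ioo_mem_nhdsGT hρ] with r hr y hy
    have hy' := mem_closedBall.1 hy
    refine (h2 (hy'.trans_lt hr.2)).trans ?_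
    rw [← dist_eq_norm]
    gcongr
  filter_upwards [(htf.eventually_all (p := fun n r => ∀ y ∈ closedBall z r,
    |Φ (lf n) y - Φ (lf n) z - fderiv ℝ (Φ (lf n)) z (y - z)| ≤ ε₁ * r)).2 fun n _ => hev (lf n),
    self_mem_nhdsWithin] with r hr hr0 y hy y' hy'
  have hr0' : (0 : ℝ) < r := hr0
  obtain ⟨u, hu, hu2⟩ := kbmd_dir hr0' hy hy'
  obtain ⟨n, hn, hnu⟩ := mem_iUnion₂.1 (ht hu2)
  have hnu' : ‖u - n‖ ≤ ε₁ := by rw [← dist_eq_norm]; exact (mem_ball.1 hnu).le
  refine ⟨lf n, ?_⟩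
  have h1 := hr n hn y hy
  have h2 := hr n hn y' hy'
  have h3 : mdf Φ z u ≤ mdf Φ z n + L * ε₁ := (mdf_lip hΦ z u n).trans (by gcongr)
  have h4 : |fderiv ℝ (Φ (lf n)) z n| ≤ |fderiv ℝ (Φ (lf n)) z u| + L * ε₁ := by
    have a1 := kbmd_abs_fderiv_le hΦ (lf n) z (u - n)
    rw [map_sub] at a1
    have a2 : (L : ℝ) * ‖u - n‖ ≤ L * ε₁ := by gcongr
    have a3 := abs_sub_abs_le_abs_sub (fderiv ℝ (Φ (lf n)) z n) (fderiv ℝ (Φ (lf n)) z u)
    rw [abs_sub_comm] at a3
    linarith
  have h5 : r * |fderiv ℝ (Φ (lf n)) z u| ≤ |Φ (lf n) y' - Φ (lf n) y| + 2 * (ε₁ * r) := by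
    have e : r * fderiv ℝ (Φ (lf n)) z u =
        fderiv ℝ (Φ (lf n)) z (y' - z) - fderiv ℝ (Φ (lf n)) z (y - z) := by
      rw [← map_sub, sub_sub_sub_cancel_right, hu, map_smul, smul_eq_mul]
    rw [← abs_of_pos hr0', ← abs_mul, abs_of_pos hr0', e]
    have a1 := le_abs_self (Φ (lf n) y' - Φ (lf n) y)
    have a2 := neg_abs_le (Φ (lf n) y' - Φ (lf n) y)
    rw [abs_le] at h1 h2 ⊢
    constructor <;> linarith [h1.1, h1.2, h2.1, h2.2]
  rw [hu, mdf_smul, abs_of_pos hr0']
  have h6 : r * mdf Φ z u ≤ r * (|fderiv ℝ (Φ (lf n)) z u| + (2 * L + 1) * ε₁) := by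
    gcongr
    linarith [hlf n]
  have h7 : ε * r = (2 * L + 3) * ε₁ * r := by rw [hε₁]; field_simp
  rw [h7]
  linarith

end Crest.Agent.R241
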